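import Vale.Agent.P161.Final

/-!
# P161: the free Ising state on the regular tree is a factor of IID below the
reconstruction threshold

For every `d ≥ 3`, every `d`-regular tree `G` and every `β ≥ 0` with
`tanh β < (d - 1)^(-1/2)`, the free zero-field ferromagnetic Ising measure exists, is unique, and
is a factor of IID.
-/

open MeasureTheory P161

namespace Vale.Agent.Results.P161.BelowReconstruction

universe u

theorem result {V : Type u} (G : SimpleGraph V) [G.LocallyFinite] (hG : G.IsTree)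
    (d : ℕ) (hd : 3 ≤ d) (hreg : G.IsRegularOfDegree d)
    (β : ℝ) (hβ : 0 ≤ β) (hcrit : Real.tanh β < 1 / Real.sqrt ((d : ℝ) - 1)) :
    (∃! μ : Measure (V → Bool), IsFreeIsing G (Real.tanh β) μ) ∧
      ∀ μ : Measure (V → Bool), IsFreeIsing G (Real.tanh β) μ → IsFactorOfIID G μ := by
  have : Countable V := countable_of_connected hG.connected
  have hd3 : (3 : ℝ) ≤ d := by exact_mod_cast hd
  have hθ0 : 0 ≤ Real.tanh β := by
    rw [Real.tanh_eq_sinh_div_cosh]
    exact div_nonneg (Real.sinh_nonneg_iff.2 hβ) (Real.cosh_pos β).le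
  have hs : 0 < Real.sqrt ((d : ℝ) - 1) := Real.sqrt_pos.2 (by linarith)
  have hs2 : Real.sqrt ((d : ℝ) - 1) ^ 2 = (d : ℝ) - 1 := Real.sq_sqrt (by linarith)
  have h1 : Real.tanh β * Real.sqrt ((d : ℝ) - 1) < 1 := by
    rwa [lt_div_iff₀ hs] at hcrit
  have h2 : Real.tanh β ^ 2 * ((d : ℝ) - 1) < 1 := by
    rw [← hs2, ← mul_pow]
    exact pow_lt_one₀ (mul_nonneg hθ0 hs.le) h1 (by norm_num)
  have hθ1 : Real.tanh β ≤ 1 := by nlinarith
  obtain ⟨μ, hμ⟩ := exists_isFreeIsing hG hθ0 hθ1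
  exact ⟨⟨μ, hμ, fun μ' hμ' => hμ'.unique hG.connected hμ⟩,
    fun μ' hμ' => isFactorOfIID hG hd hreg hθ0 h2 hμ'⟩

end Vale.Agent.Results.P161.BelowReconstruction
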