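import Vale.Agent.P161S.Main

/-!
# P161: the set of all `β ≥ 0` for which the free Ising state on the `d`-regular tree is a factor
of IID

For every `d ≥ 3` there is a `d`-regular tree; for every `d`-regular tree the free zero-field Ising
measures `μ β`, `β ≥ 0`, exist and are unique, and the set of `β ≥ 0` for which `μ β` is a factor
of IID is the closed interval from `0` to `artanh ((d - 1)^(-1/2))`.
-/

open MeasureTheory P161

namespace Vale.Agent.Results.P161.BetaSet

universe u

theorem result (d : ℕ) (hd : 3 ≤ d) :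
    (∃ (V : Type) (G : SimpleGraph V) (_ : G.LocallyFinite), G.IsTree ∧ G.IsRegularOfDegree d) ∧
    (∀ (V : Type u) (G : SimpleGraph V) [G.LocallyFinite], G.IsTree → G.IsRegularOfDegree d →
      ∃ μ : ℝ → Measure (V → Bool),
        (∀ β : ℝ, 0 ≤ β → ∀ ν : Measure (V → Bool), IsFreeIsing G (Real.tanh β) ν ↔ ν = μ β) ∧
        {β : ℝ | 0 ≤ β ∧ IsFactorOfIID G (μ β)} =
          Set.Icc 0 (Real.artanh (1 / Real.sqrt ((d : ℝ) - 1)))) ∧
    Real.artanh (1 / Real.sqrt ((d : ℝ) - 1)) =
      (1 / 2) * Real.log ((Real.sqrt ((d : ℝ) - 1) + 1) / (Real.sqrt ((d : ℝ) - 1) - 1)) :=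
  Vale.Agent.P161S.main d hd

end Vale.Agent.Results.P161.BetaSet
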