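import Vale.Agent.P161C.Assembly
import Vale.Agent.P161C.Main

/-!
# P161: the free Ising state on the `d`-regular tree is a factor of IID exactly up to the
reconstruction threshold

For every `d ≥ 3`, every `d`-regular tree `G` and every `β ≥ 0`, the free zero-field
ferromagnetic Ising measure exists, is unique, and is a factor of IID if and only if
`tanh β ≤ (d - 1)^(-1/2)`; in particular it is a factor of IID at the critical value.
-/

open MeasureTheory P161

namespace Vale.Agent.Results.P161.Threshold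

universe u

theorem result {V : Type u} (G : SimpleGraph V) [G.LocallyFinite] (hG : G.IsTree)
    (d : ℕ) (hd : 3 ≤ d) (hreg : G.IsRegularOfDegree d) (β : ℝ) (hβ : 0 ≤ β) :
    (∃! μ : Measure (V → Bool), IsFreeIsing G (Real.tanh β) μ) ∧
      ∀ μ : Measure (V → Bool), IsFreeIsing G (Real.tanh β) μ →
        (IsFactorOfIID G μ ↔ Real.tanh β ≤ 1 / Real.sqrt ((d : ℝ) - 1)) := by
  have : Countable V := countable_of_connected hG.connected
  have hd3 : (3 : ℝ) ≤ d := by exact_mod_cast hd
  have hθ0 : 0 ≤ Real.tanh β := by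
    rw [Real.tanh_eq_sinh_div_cosh]
    exact div_nonneg (Real.sinh_nonneg_iff.2 hβ) (Real.cosh_pos β).le
  have hθ1 : Real.tanh β ≤ 1 := (Real.tanh_lt_one β).le
  have hs : 0 < Real.sqrt ((d : ℝ) - 1) := Real.sqrt_pos.2 (by linarith)
  have hs2 : Real.sqrt ((d : ℝ) - 1) ^ 2 = (d : ℝ) - 1 := Real.sq_sqrt (by linarith)
  obtain ⟨μ, hμ⟩ := exists_isFreeIsing hG hθ0 hθ1
  refine ⟨⟨μ, hμ, fun μ' hμ' => hμ'.unique hG.connected hμ⟩, fun μ' hμ' => ?_⟩
  obtain ⟨D, rfl⟩ : ∃ D, d = D + 1 := ⟨d - 1, by omega⟩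
  have hE : P161C.Env G D := ⟨hG, hreg, by omega⟩
  have hD : ((D + 1 : ℕ) : ℝ) - 1 = D := by push_cast; ring
  rw [hD] at hs hs2 ⊢
  constructor
  · intro hf
    by_contra hlt
    rw [not_le, div_lt_iff₀ hs] at hlt
    refine P161C.Above.not_factor hE hμ' hθ0 ?_ hf
    rw [← hs2, ← mul_pow]
    exact one_lt_pow₀ hlt (by norm_num)
  · intro hle
    rcases hle.eq_or_lt with heq | hlt
    · have : P161C.thc D = Real.tanh β := by
        unfold P161C.thc
        exact heq.symm
      rw [← this] at hμ'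
      exact P161C.a_fin (P161C.main_proof P161C.msg_proof P161C.shp_proof) V G D hE μ' hμ'
    · refine isFactorOfIID hG hd hreg hθ0 ?_ hμ'
      rw [lt_div_iff₀ hs] at hlt
      rw [hD, ← hs2, ← mul_pow]
      exact pow_lt_one₀ (mul_nonneg hθ0 hs.le) hlt (by norm_num)

end Vale.Agent.Results.P161.Threshold
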